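import Vale.Agent.Lib.P062.Root

/-!
# A checker for proof DAGs of the Snaky game, with translations

A claim is a pair `(M, Z)` of bit masks on a window of side `32`, up to translation: for every
translation, if Maker owns every translated cell of `M`, Breaker owns no translated cell of `Z` and
Maker is to move, then Maker forces a win.  A claim with a move `m` follows from shifted claims
`(Mᵢ, Zᵢ)` if every `Mᵢ` lies in `M ∪ {m}`, every `Zᵢ` lies in `Z ∪ M ∪ {m}`, and every cell outside
`M ∪ {m}` misses some `Zᵢ`: every reply of Breaker then misses some `Zᵢ`.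
-/

namespace Vale.Agent.Lib.P062.Dag2

open Vale.Agent.Lib.P062

/-- The cell with code `c`. -/
def dec (c : ℕ) : Cell := (((c % 32 : ℕ) : ℤ), ((c / 32 : ℕ) : ℤ))

/-- The translate of the cell `p` by `t`. -/
def tr (t p : Cell) : Cell := (p.1 + t.1, p.2 + t.2)

theorem tr_dec_inj {t : Cell} {c d : ℕ} (h : tr t (dec c) = tr t (dec d)) : c = d := by
  simp only [tr, dec, Prod.mk.injEq, add_left_inj, Nat.cast_inj] at h
  omega

/-- The meaning of a claim: a win within `n` moves, at every translation. -/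
def Good (n M Z : ℕ) : Prop :=
  ∀ (t : Cell) (MM BB : Finset Cell), (∀ c, M.testBit c = true → tr t (dec c) ∈ MM) →
    (∀ c, Z.testBit c = true → tr t (dec c) ∉ BB) → (∀ x ∈ MM, x ∉ BB) → MakerForces n MM BB

theorem Good.mono {n n' M Z : ℕ} (h : n ≤ n') (hg : Good n M Z) : Good n' M Z :=
  fun t MM BB h1 h2 h3 => MakerForces.mono h (hg t MM BB h1 h2 h3)

theorem exists_fresh (S : Finset Cell) : ∃ x : Cell, x ∉ S :=
  Infinite.exists_notMem_finset S

theorem testBit_of_land_eq {a b c : ℕ} (h : a &&& b = a) (hc : a.testBit c = true) :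
    b.testBit c = true := by
  rw [← h, Nat.testBit_land] at hc
  simp only [Bool.and_eq_true] at hc
  exact hc.2

/-- Shifting a claim inside the window. -/
theorem Good.shift {n M Z dx dy : ℕ} (hg : Good n M Z)
    (hw : ∀ c, (M.testBit c = true ∨ Z.testBit c = true) → c % 32 + dx < 32) :
    Good n (M <<< (dy * 32 + dx)) (Z <<< (dy * 32 + dx)) := by
  intro t MM BB hM hZ hdis
  have hcell : ∀ c, c % 32 + dx < 32 →
      tr (t.1 + dx, t.2 + dy) (dec c) = tr t (dec (c + (dy * 32 + dx))) := by
    intro c hc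
    have h1 : (c + (dy * 32 + dx)) % 32 = c % 32 + dx := by omega
    have h2 : (c + (dy * 32 + dx)) / 32 = c / 32 + dy := by omega
    simp only [tr, dec, h1, h2]
    push_cast
    ext <;> simp only <;> ring
  refine hg (t.1 + dx, t.2 + dy) MM BB ?_ ?_ hdis
  · intro c hc
    rw [hcell c (hw c (Or.inl hc))]
    apply hM
    rw [Nat.testBit_shiftLeft]
    simp [hc]
  · intro c hc
    rw [hcell c (hw c (Or.inr hc))]
    apply hZ
    rw [Nat.testBit_shiftLeft]
    simp [hc]

/-- The key step of the checker. -/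
theorem good_step {n M Z m : ℕ} {L : List (ℕ × ℕ)}
    (hm : Z.testBit m = true)
    (hL : ∀ p ∈ L, Good n p.1 p.2)
    (hM : ∀ p ∈ L, p.1 &&& (M ||| (1 <<< m)) = p.1)
    (hZ : ∀ p ∈ L, p.2 &&& (Z ||| (M ||| (1 <<< m))) = p.2)
    (hI : ∀ c, (M ||| (1 <<< m)).testBit c = false → ∃ p ∈ L, p.2.testBit c = false)
    (hne : L ≠ []) : Good (n + 1) M Z := by
  intro t MM BB hMM hBB hdis
  have hmB : tr t (dec m) ∉ BB := hBB m hm
  have hbit : ∀ c, (M ||| (1 <<< m)).testBit c = true → c = m ∨ M.testBit c = true := by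
    intro c hc
    rw [Nat.testBit_or, Bool.or_eq_true] at hc
    rcases hc with hc | hc
    · exact Or.inr hc
    · rw [Nat.one_shiftLeft, Nat.testBit_two_pow] at hc
      have : m = c := by simpa using hc
      exact Or.inl this.symm
  -- the cell Maker actually plays
  obtain ⟨x, hxM, hxB, hx⟩ : ∃ x : Cell, x ∉ MM ∧ x ∉ BB ∧ tr t (dec m) ∈ insert x MM := by
    by_cases h : tr t (dec m) ∈ MM
    · obtain ⟨x, hx⟩ := exists_fresh (MM ∪ BB)
      simp only [Finset.mem_union, not_or] at hx
      exact ⟨x, hx.1, hx.2, Finset.mem_insert_of_mem h⟩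
    · exact ⟨tr t (dec m), h, hmB, Finset.mem_insert_self _ _⟩
  refine Or.inr ⟨x, hxM, hxB, ?_⟩
  intro b hb hbB
  -- the stones of `M ∪ {m}` are in `insert x MM`
  have hst : ∀ c, (M ||| (1 <<< m)).testBit c = true → tr t (dec c) ∈ insert x MM := by
    intro c hc
    rcases hbit c hc with rfl | hc
    · exact hx
    · exact Finset.mem_insert_of_mem (hMM c hc)
  -- find the child avoiding b
  obtain ⟨p, hpL, hpb⟩ : ∃ p ∈ L, ∀ c, p.2.testBit c = true → tr t (dec c) ≠ b := by
    by_cases hc : ∃ c, tr t (dec c) = b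
    · obtain ⟨c, rfl⟩ := hc
      have hc0 : (M ||| (1 <<< m)).testBit c = false := by
        rw [Bool.eq_false_iff]
        intro h
        exact hb (hst c h)
      obtain ⟨p, hp, hpc⟩ := hI c hc0
      refine ⟨p, hp, fun d hd hdc => ?_⟩
      have := tr_dec_inj hdc
      subst this
      simp [hpc] at hd
    · push Not at hc
      obtain ⟨p, hp⟩ := List.exists_mem_of_ne_nil L hne
      exact ⟨p, hp, fun c _ => hc c⟩
  refine hL p hpL t _ _ ?_ ?_ ?_
  · intro c hc
    exact hst c (testBit_of_land_eq (hM p hpL) hc)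
  · intro c hc
    rw [Finset.mem_insert, not_or]
    refine ⟨hpb c hc, ?_⟩
    have h1 := testBit_of_land_eq (hZ p hpL) hc
    rw [Nat.testBit_or, Bool.or_eq_true] at h1
    rcases h1 with h1 | h1
    · exact hBB c h1
    · rcases hbit c h1 with rfl | h2
      · exact hmB
      · exact hdis _ (hMM c h2)
  · intro y hy
    rw [Finset.mem_insert] at hy
    rw [Finset.mem_insert, not_or]
    rcases hy with rfl | hy
    · refine ⟨fun h => hb (h ▸ Finset.mem_insert_self _ _), hxB⟩
    · exact ⟨fun h => hb (h ▸ Finset.mem_insert_of_mem hy), hdis y hy⟩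

/-! ### Leaves: a copy inside `M` -/

/-- The orientations: the matrix and the shift making all coordinates non-negative. -/
def orient (o : ℕ) : ℤ × ℤ × ℤ × ℤ × ℤ × ℤ :=
  match o with
  | 0 => (1, 0, 0, 1, 0, 0)
  | 1 => (1, 0, 0, -1, 0, 1)
  | 2 => (-1, 0, 0, 1, 4, 0)
  | 3 => (-1, 0, 0, -1, 4, 1)
  | 4 => (0, 1, 1, 0, 0, 0)
  | 5 => (0, 1, -1, 0, 0, 4)
  | 6 => (0, -1, 1, 0, 1, 0)
  | _ => (0, -1, -1, 0, 1, 4)

/-- The offsets of the six cells in orientation `o`. -/
def patt (o : ℕ) : List (ℕ × ℕ) :=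
  match o with
  | 0 => [(0, 0), (1, 0), (2, 0), (3, 0), (3, 1), (4, 1)]
  | 1 => [(0, 1), (1, 1), (2, 1), (3, 1), (3, 0), (4, 0)]
  | 2 => [(4, 0), (3, 0), (2, 0), (1, 0), (1, 1), (0, 1)]
  | 3 => [(4, 1), (3, 1), (2, 1), (1, 1), (1, 0), (0, 0)]
  | 4 => [(0, 0), (0, 1), (0, 2), (0, 3), (1, 3), (1, 4)]
  | 5 => [(0, 4), (0, 3), (0, 2), (0, 1), (1, 1), (1, 0)]
  | 6 => [(1, 0), (1, 1), (1, 2), (1, 3), (0, 3), (0, 4)]
  | _ => [(1, 4), (1, 3), (1, 2), (1, 1), (0, 1), (0, 0)]

theorem orient_snaky : ∀ o < 8,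
    ∀ p ∈ snaky, ∃ uv ∈ patt o,
      ((orient o).1 * p.1 + (orient o).2.1 * p.2 + (orient o).2.2.2.2.1,
        (orient o).2.2.1 * p.1 + (orient o).2.2.2.1 * p.2 + (orient o).2.2.2.2.2) =
        (((uv.1 : ℕ) : ℤ), ((uv.2 : ℕ) : ℤ)) := by
  decide +kernel

theorem orient_sign : ∀ o < 8,
    IsSignedPerm (orient o).1 (orient o).2.1 (orient o).2.2.1 (orient o).2.2.2.1 := by
  intro o ho
  interval_cases o <;> simp [orient, IsSignedPerm]

theorem dec_code {X Y u v : ℕ} (h : X + u < 32) :
    dec ((Y + v) * 32 + (X + u)) = ((X : ℤ) + u, (Y : ℤ) + v) := by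
  have h1 : ((Y + v) * 32 + (X + u)) % 32 = X + u := by omega
  have h2 : ((Y + v) * 32 + (X + u)) / 32 = Y + v := by omega
  simp only [dec, h1, h2]
  push_cast
  rfl

theorem patt_le : ∀ o < 8, ∀ uv ∈ patt o, uv.1 ≤ 4 := by decide +kernel

/-- The leaf check: `M` contains the six cells of the copy `(o, X, Y)`. -/
def leafOK (M o X Y : ℕ) : Bool :=
  Nat.blt o 8 && Nat.blt (X + 4) 32 &&
    (patt o).all (fun uv => M.testBit ((Y + uv.2) * 32 + (X + uv.1)))

theorem copy_of_patt {a b c d s1 s2 : ℤ} (hs : IsSignedPerm a b c d) {P : List (ℕ × ℕ)}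
    (hP : ∀ p ∈ snaky, ∃ uv ∈ P,
      (a * p.1 + b * p.2 + s1, c * p.1 + d * p.2 + s2) = (((uv.1 : ℕ) : ℤ), ((uv.2 : ℕ) : ℤ)))
    (hle : ∀ uv ∈ P, uv.1 ≤ 4) {X Y : ℕ} (hX : X + 4 < 32) {t : Cell} {MM : Finset Cell}
    (hall : ∀ uv ∈ P, tr t (dec ((Y + uv.2) * 32 + (X + uv.1))) ∈ MM) : HasCopy MM := by
  refine ⟨snaky.image fun p =>
      (a * p.1 + b * p.2 + ((X : ℤ) + t.1 + s1), c * p.1 + d * p.2 + ((Y : ℤ) + t.2 + s2)),
      ?_, a, b, c, d, (X : ℤ) + t.1 + s1, (Y : ℤ) + t.2 + s2, hs, rfl⟩
  intro x hx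
  rw [Finset.mem_image] at hx
  obtain ⟨p, hp, rfl⟩ := hx
  obtain ⟨uv, huv, he⟩ := hP p hp
  have hu := hle uv huv
  have hb := hall uv huv
  rw [dec_code (by omega)] at hb
  convert hb using 1
  have h1 := congrArg Prod.fst he
  have h2 := congrArg Prod.snd he
  simp only at h1 h2
  ext
  · simp only [tr]
    linarith
  · simp only [tr]
    linarith

theorem good_leaf {n M Z o X Y : ℕ} (h : leafOK M o X Y = true) : Good n M Z := by
  intro t MM BB hMM _ _
  simp only [leafOK, Bool.and_eq_true, List.all_eq_true] at h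
  obtain ⟨⟨ho, hX⟩, hall⟩ := h
  have ho : o < 8 := by simpa [Nat.blt_eq] using ho
  have hX : X + 4 < 32 := by simpa [Nat.blt_eq] using hX
  have hcopy : HasCopy MM :=
    copy_of_patt (orient_sign o ho) (orient_snaky o ho) (patt_le o ho) hX
      (fun uv huv => hMM _ (hall uv huv))
  cases n with
  | zero => exact hcopy
  | succ n => exact Or.inl hcopy

/-! ### Data tables and the checker

Everything below is written with the raw functions on `ℕ` and the recursors, since the kernel
evaluates these fastest. -/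

/-- A binary tree of chunks. -/
inductive BT where
  | leaf (v : ℕ)
  | node (l r : BT)

/-- Strict-free conjunction of booleans. -/
noncomputable def andB (a b : Bool) : Bool := Bool.rec false b a

theorem andB_eq (a b : Bool) : andB a b = (a && b) := by cases a <;> rfl

/-- Lookup in the tree, by the bits of the index. -/
noncomputable def BT.get (t : BT) : ℕ → ℕ :=
  BT.rec (motive := fun _ => ℕ → ℕ) (fun v _ => v)
    (fun _ _ il ir k =>
      Bool.rec (il (Nat.shiftRight k (nat_lit 1))) (ir (Nat.shiftRight k (nat_lit 1)))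
        (Nat.beq (Nat.land k (nat_lit 1)) (nat_lit 1))) t

/-- Mask of the width of a mask. -/
def mask1024 : ℕ := Nat.sub (Nat.shiftLeft (nat_lit 1) (nat_lit 1024)) (nat_lit 1)
/-- Mask of the width of a record. -/
def mask2168 : ℕ := Nat.sub (Nat.shiftLeft (nat_lit 1) (nat_lit 2168)) (nat_lit 1)
/-- Mask of the width of a slot. -/
def mask34 : ℕ := Nat.sub (Nat.shiftLeft (nat_lit 1) (nat_lit 34)) (nat_lit 1)

/-- The record of node `i`. -/
noncomputable def rc (T : BT) (i : ℕ) : ℕ :=
  Nat.land (Nat.shiftRight (T.get (Nat.shiftRight i (nat_lit 6)))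
    (Nat.mul (Nat.land i (nat_lit 63)) (nat_lit 2168))) mask2168

/-- Number of children. -/
def rNc (r : ℕ) : ℕ := Nat.land r (nat_lit 255)
/-- The move. -/
def rMv (r : ℕ) : ℕ := Nat.land (Nat.shiftRight r (nat_lit 8)) (nat_lit 1023)
/-- The mask `M`. -/
def rM (r : ℕ) : ℕ := Nat.land (Nat.shiftRight r (nat_lit 18)) mask1024
/-- The mask `Z`. -/
def rZ (r : ℕ) : ℕ := Nat.land (Nat.shiftRight r (nat_lit 1042)) mask1024
/-- First slot. -/
def rS1 (r : ℕ) : ℕ := Nat.land (Nat.shiftRight r (nat_lit 2066)) mask34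
/-- Second slot. -/
def rS2 (r : ℕ) : ℕ := Nat.land (Nat.shiftRight r (nat_lit 2100)) mask34
/-- Third slot. -/
def rS3 (r : ℕ) : ℕ := Nat.land (Nat.shiftRight r (nat_lit 2134)) mask34

/-- Overflow table entry. -/
noncomputable def cc (C : BT) (j : ℕ) : ℕ :=
  Nat.land (Nat.shiftRight (C.get (Nat.shiftRight j (nat_lit 6)))
    (Nat.mul (Nat.land j (nat_lit 63)) (nat_lit 34))) mask34

/-- The overflow children `s, s+1, …, s+n-1`. -/
noncomputable def ovf (C : BT) (s n : ℕ) : List ℕ :=
  Nat.rec (motive := fun _ => List ℕ) [] (fun k ih => cc C (Nat.add s k) :: ih) n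

/-- The children of a record. -/
noncomputable def children (C : BT) (r : ℕ) : List ℕ :=
  Bool.rec (ovf C (rS1 r) (rNc r))
    (Bool.rec
      (Bool.rec [rS1 r, rS2 r] [rS1 r] (Nat.ble (rNc r) (nat_lit 1)))
      [rS1 r, rS2 r, rS3 r] (Nat.beq (rNc r) (nat_lit 3)))
    (Nat.ble (rNc r) (nat_lit 3))

/-- The index of a child reference. -/
def eI (e : ℕ) : ℕ := Nat.land e (nat_lit 16777215)
/-- The horizontal shift of a child reference. -/
def eX (e : ℕ) : ℕ := Nat.land (Nat.shiftRight e (nat_lit 24)) (nat_lit 31)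
/-- The vertical shift of a child reference. -/
def eY (e : ℕ) : ℕ := Nat.land (Nat.shiftRight e (nat_lit 29)) (nat_lit 31)
/-- The bit shift of a child reference. -/
def eS (e : ℕ) : ℕ := Nat.add (Nat.mul (eY e) (nat_lit 32)) (eX e)

/-- The cells in the last `dx` columns of the window. -/
def colMask (dx : ℕ) : ℕ :=
  Nat.mul (Nat.shiftLeft (Nat.sub (Nat.shiftLeft (nat_lit 1) dx) (nat_lit 1))
    (Nat.sub (nat_lit 32) dx))
    0x100000001000000010000000100000001000000010000000100000001000000010000000100000001000000010000000100000001000000010000000100000001000000010000000100000001000000010000000100000001000000010000000100000001000000010000000100000001000000010000000100000001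

theorem colMask_spec : ∀ dx < 32, ∀ c < 1024, 32 ≤ c % 32 + dx → (colMask dx).testBit c = true := by
  decide +kernel

/-- The mask `M` of a child reference, in the frame of the parent. -/
noncomputable def sM (T : BT) (e : ℕ) : ℕ := Nat.shiftLeft (rM (rc T (eI e))) (eS e)
/-- The mask `Z` of a child reference, in the frame of the parent. -/
noncomputable def sZ (T : BT) (e : ℕ) : ℕ := Nat.shiftLeft (rZ (rc T (eI e))) (eS e)

/-- Check of one child reference `e` of the node `i`, with `M'` the parent stones and the move, and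
`U` the union of `M'` and the parent zone. -/
noncomputable def childOK (T : BT) (i M' U e : ℕ) : Bool :=
  andB (Nat.ble (Nat.add (eI e) (nat_lit 1)) i)
    (andB (Nat.beq (Nat.land (Nat.lor (rM (rc T (eI e))) (rZ (rc T (eI e)))) (colMask (eX e)))
        (nat_lit 0))
      (andB (Nat.beq (Nat.land (sM T e) M') (sM T e))
        (Nat.beq (Nat.land (sZ T e) U) (sZ T e))))

/-- Loop over the children with the running intersection. -/
noncomputable def kids (T : BT) (i M' U : ℕ) (L : List ℕ) : ℕ → Bool :=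
  List.rec (motive := fun _ => ℕ → Bool) (fun a => Nat.beq (Nat.land a M') a)
    (fun e _ ih a => andB (childOK T i M' U e) (ih (Nat.land a (sZ T e)))) L

/-- Check of a non-leaf record. -/
noncomputable def innerOK (T C : BT) (i r : ℕ) : Bool :=
  andB (Nat.beq (Nat.land (Nat.shiftRight (rZ r) (rMv r)) (nat_lit 1)) (nat_lit 1))
    (kids T i (Nat.lor (rM r) (Nat.shiftLeft (nat_lit 1) (rMv r)))
      (Nat.lor (rZ r) (Nat.lor (rM r) (Nat.shiftLeft (nat_lit 1) (rMv r))))
      (children C r) (rZ r))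

/-- Check of a record. -/
noncomputable def recOK (T C : BT) (i r : ℕ) : Bool :=
  Bool.rec (innerOK T C i r)
    (leafOK (rM r) (Nat.land (rS1 r) (nat_lit 7)) (rS2 r) (rS3 r))
    (Nat.beq (rNc r) (nat_lit 0))

/-- Check of the node `i`. -/
noncomputable def nodeOK (T C : BT) (i : ℕ) : Bool := recOK T C i (rc T i)

/-- All nodes in a range are fine. -/
noncomputable def rangeOK (T C : BT) (lo n : ℕ) : Bool :=
  Nat.rec (motive := fun _ => Bool) true (fun k ih => andB (nodeOK T C (Nat.add lo k)) ih) n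

theorem rangeOK_spec {T C : BT} {lo n : ℕ} (h : rangeOK T C lo n = true) :
    ∀ k < n, nodeOK T C (lo + k) = true := by
  induction n with
  | zero => intro k hk; omega
  | succ n ih =>
    have h' : (andB (nodeOK T C (lo + n)) (rangeOK T C lo n)) = true := h
    rw [andB_eq, Bool.and_eq_true] at h'
    intro k hk
    rcases Nat.lt_succ_iff_lt_or_eq.mp hk with hk | rfl
    · exact ih h'.2 k hk
    · exact h'.1

/-- All nodes below `n` are fine. -/
def AllOK (T C : BT) (n : ℕ) : Prop := ∀ i < n, nodeOK T C i = true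

theorem AllOK.zero (T C : BT) : AllOK T C 0 := fun _ h => absurd h (Nat.not_lt_zero _)

theorem AllOK.add {T C : BT} {lo n m : ℕ} (h : AllOK T C lo) (h2 : rangeOK T C lo n = true)
    (hm : lo + n = m) : AllOK T C m := by
  subst hm
  intro i hi
  by_cases hlo : i < lo
  · exact h i hlo
  · have := rangeOK_spec h2 (i - lo) (by omega)
    rwa [Nat.add_sub_cancel' (by omega)] at this

theorem kids_spec {T : BT} {i M' U : ℕ} (L : List ℕ) (a : ℕ)
    (h : kids T i M' U L a = true) :
    (∀ e ∈ L, childOK T i M' U e = true) ∧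
      ∀ x, a.testBit x = true → M'.testBit x = false → ∃ e ∈ L, (sZ T e).testBit x = false := by
  induction L generalizing a with
  | nil =>
    have h' : Nat.beq (Nat.land a M') a = true := h
    have ha : a &&& M' = a := Nat.eq_of_beq_eq_true h'
    refine ⟨by simp, fun x hx hx2 => ?_⟩
    have := testBit_of_land_eq ha hx
    rw [this] at hx2
    exact absurd hx2 (by simp)
  | cons e L ih =>
    have h' : (andB (childOK T i M' U e) (kids T i M' U L (a &&& sZ T e))) = true := h
    rw [andB_eq, Bool.and_eq_true] at h'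
    obtain ⟨h1, h2⟩ := ih _ h'.2
    refine ⟨?_, fun x hx hx2 => ?_⟩
    · intro d hd
      rcases List.mem_cons.mp hd with rfl | hd
      · exact h'.1
      · exact h1 d hd
    · by_cases hc : (sZ T e).testBit x = true
      · obtain ⟨d, hd, hdx⟩ := h2 x (by rw [Nat.testBit_land, hx, hc]; rfl) hx2
        exact ⟨d, List.mem_cons_of_mem _ hd, hdx⟩
      · exact ⟨e, List.mem_cons_self, by simpa using hc⟩

theorem testBit_of_shift {Z m : ℕ}
    (h : Nat.beq (Nat.land (Nat.shiftRight Z m) (nat_lit 1)) (nat_lit 1) = true) :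
    Z.testBit m = true := by
  have h1 : Nat.land (Nat.shiftRight Z m) 1 = 1 := Nat.eq_of_beq_eq_true h
  have h2 : (1 &&& (Z >>> m)) = 1 := by
    rw [Nat.land_comm]; exact h1
  simp [Nat.testBit, h2]

theorem children_ne {C : BT} {r : ℕ} (h : Nat.beq (rNc r) 0 = false) : children C r ≠ [] := by
  have h0 : rNc r ≠ 0 := by
    intro h1
    rw [h1] at h
    exact absurd h (by decide)
  unfold children
  cases h3 : Nat.ble (rNc r) 3 with
  | true =>
    simp only
    cases h4 : Nat.beq (rNc r) 3 with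
    | true => simp
    | false =>
      simp only
      cases h5 : Nat.ble (rNc r) 1 <;> simp
  | false =>
    simp only
    obtain ⟨k, hk⟩ := Nat.exists_eq_succ_of_ne_zero h0
    unfold ovf
    rw [hk]
    simp

theorem mask_lt {a n c : ℕ}
    (h : (Nat.land a (Nat.sub (Nat.shiftLeft 1 n) 1)).testBit c = true) : c < n := by
  have h1 : a &&& (2 ^ n - 1) = Nat.land a (Nat.sub (Nat.shiftLeft 1 n) 1) := by
    rw [show Nat.shiftLeft 1 n = 2 ^ n from Nat.one_shiftLeft n]
    rfl
  rw [← h1, Nat.testBit_land, Nat.testBit_two_pow_sub_one] at h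
  simp only [Bool.and_eq_true, decide_eq_true_eq] at h
  exact h.2

theorem rM_lt {r c : ℕ} (h : (rM r).testBit c = true) : c < 1024 := mask_lt h

theorem rZ_lt {r c : ℕ} (h : (rZ r).testBit c = true) : c < 1024 := mask_lt h

theorem eX_lt (e : ℕ) : eX e < 32 := by
  have : eX e = (e >>> 24) &&& 31 := rfl
  rw [this]
  exact lt_of_le_of_lt Nat.and_le_right (by norm_num)

/-- The shift of a child stays inside the window. -/
theorem no_wrap {M Z dx : ℕ} (hdx : dx < 32) (hM : ∀ c, M.testBit c = true → c < 1024)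
    (hZ : ∀ c, Z.testBit c = true → c < 1024)
    (h : Nat.beq (Nat.land (Nat.lor M Z) (colMask dx)) 0 = true) :
    ∀ c, (M.testBit c = true ∨ Z.testBit c = true) → c % 32 + dx < 32 := by
  intro c hc
  have h0 : (M ||| Z) &&& colMask dx = 0 := Nat.eq_of_beq_eq_true h
  by_contra hcon
  have hlt : c < 1024 := by
    rcases hc with hc | hc
    · exact hM c hc
    · exact hZ c hc
  have hb := colMask_spec dx hdx c hlt (by omega)
  have hor : (M ||| Z).testBit c = true := by
    rw [Nat.testBit_or, Bool.or_eq_true]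
    exact hc
  have : ((M ||| Z) &&& colMask dx).testBit c = true := by
    rw [Nat.testBit_land, hor, hb]
    rfl
  rw [h0] at this
  simp at this

/-- The main soundness theorem. -/
theorem all_good {T C : BT} {n : ℕ} (h : AllOK T C n) :
    ∀ i < n, Good (i + 1) (rM (rc T i)) (rZ (rc T i)) := by
  intro i
  induction i using Nat.strong_induction_on with
  | _ i ih =>
    intro hi
    have hOK := h i hi
    have hOK1 : recOK T C i (rc T i) = true := hOK
    by_cases h0 : Nat.beq (rNc (rc T i)) 0 = true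
    · unfold recOK at hOK1
      rw [h0] at hOK1
      exact good_leaf hOK1
    · have h0' : Nat.beq (rNc (rc T i)) 0 = false := Bool.eq_false_iff.mpr h0
      unfold recOK at hOK1
      rw [h0'] at hOK1
      have hOK' : (andB (Nat.beq (Nat.land (Nat.shiftRight (rZ (rc T i)) (rMv (rc T i))) (nat_lit 1)) (nat_lit 1))
        (kids T i (Nat.lor (rM (rc T i)) (Nat.shiftLeft (nat_lit 1) (rMv (rc T i))))
          (Nat.lor (rZ (rc T i)) (Nat.lor (rM (rc T i)) (Nat.shiftLeft (nat_lit 1) (rMv (rc T i)))))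
          (children C (rc T i)) (rZ (rc T i)))) = true := hOK1
      rw [andB_eq, Bool.and_eq_true] at hOK'
      obtain ⟨hb, hk⟩ := hOK'
      obtain ⟨hc, hI⟩ := kids_spec _ _ hk
      have hb' : (rZ (rc T i)).testBit (rMv (rc T i)) = true := testBit_of_shift hb
      have hch : ∀ e ∈ children C (rc T i), eI e < i ∧
          (∀ c, ((rM (rc T (eI e))).testBit c = true ∨ (rZ (rc T (eI e))).testBit c = true) →
            c % 32 + eX e < 32) ∧
          sM T e &&& (rM (rc T i) ||| (1 <<< rMv (rc T i))) = sM T e ∧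
          sZ T e &&& (rZ (rc T i) ||| (rM (rc T i) ||| (1 <<< rMv (rc T i)))) = sZ T e := by
        intro e heL
        have h3 : (andB (Nat.ble (Nat.add (eI e) (nat_lit 1)) i)
          (andB (Nat.beq (Nat.land (Nat.lor (rM (rc T (eI e))) (rZ (rc T (eI e)))) (colMask (eX e)))
              (nat_lit 0))
            (andB (Nat.beq (Nat.land (sM T e) (Nat.lor (rM (rc T i)) (Nat.shiftLeft (nat_lit 1) (rMv (rc T i))))) (sM T e))
              (Nat.beq (Nat.land (sZ T e) (Nat.lor (rZ (rc T i)) (Nat.lor (rM (rc T i)) (Nat.shiftLeft (nat_lit 1) (rMv (rc T i)))))) (sZ T e))))) = true := hc e heL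
        simp only [andB_eq, Bool.and_eq_true] at h3
        obtain ⟨h1, hw, h2, h3⟩ := h3
        exact ⟨Nat.le_of_ble_eq_true h1,
          no_wrap (eX_lt e) (fun c hc => rM_lt hc) (fun c hc => rZ_lt hc) hw,
          Nat.eq_of_beq_eq_true h2, Nat.eq_of_beq_eq_true h3⟩
      have hne : children C (rc T i) ≠ [] := children_ne h0'
      obtain ⟨c0, hc0⟩ := List.exists_mem_of_ne_nil _ hne
      refine good_step (L := (children C (rc T i)).map (fun e => (sM T e, sZ T e))) hb' ?_ ?_ ?_ ?_ ?_
      · intro p hp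
        obtain ⟨e, heL, rfl⟩ := List.mem_map.mp hp
        have hci := (hch e heL).1
        have hg := Good.mono (n' := i) (by omega) (ih (eI e) hci (by omega))
        exact Good.shift (dy := eY e) hg (hch e heL).2.1
      · intro p hp
        obtain ⟨e, heL, rfl⟩ := List.mem_map.mp hp
        exact (hch e heL).2.2.1
      · intro p hp
        obtain ⟨e, heL, rfl⟩ := List.mem_map.mp hp
        exact (hch e heL).2.2.2
      · intro x hxM
        by_cases hx : (rZ (rc T i)).testBit x = true
        · obtain ⟨e, heL, hex⟩ := hI x hx hxM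
          exact ⟨_, List.mem_map.mpr ⟨e, heL, rfl⟩, hex⟩
        · refine ⟨_, List.mem_map.mpr ⟨c0, hc0, rfl⟩, ?_⟩
          rw [Bool.eq_false_iff]
          intro hbad
          have h5 := testBit_of_land_eq (hch c0 hc0).2.2.2 hbad
          rw [Nat.testBit_or, Bool.or_eq_true] at h5
          rcases h5 with h5 | h5
          · exact hx h5
          · rw [h5] at hxM
            exact absurd hxM (by simp)
      · intro hnil
        exact hne (List.map_eq_nil_iff.mp hnil)

end Vale.Agent.Lib.P062.Dag2
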